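import Mathlib
import Vale.Agent.P069.Defs
import Vale.Agent.P069.Final

namespace Vale.Agent.Results.P069.AmucNotAuc

open Vale.Agent.P069

/-- There is a separable reflexive infinite-dimensional real Banach space whose own norm is
asymptotically midpoint uniformly convex (with an explicit modulus of power type 2) and which has
no equivalent asymptotically uniformly convex norm. -/
theorem result :
    ∃ (X : Type) (_ : NormedAddCommGroup X) (_ : NormedSpace ℝ X),
      CompleteSpace X ∧ ¬ FiniteDimensional ℝ X ∧ TopologicalSpace.SeparableSpace X ∧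
      IsReflexiveSpace X ∧
      (∀ t : ℝ, 0 < t →
        ((Real.sqrt (1 + t ^ 2 / 16) - 1 : ℝ) : EReal) ≤ amucModulus (normSeminorm ℝ X) t) ∧
      IsAMUC (normSeminorm ℝ X) ∧ AMUCRenormable X ∧ ¬ AUCRenormable X := by
  refine ⟨Vale.Agent.P069.X, inferInstance, inferInstance, inferInstance,
    not_finiteDimensional_X, separable_X, reflexive_X, amuc_modulus_ge, isAMUC_X, ?_,
    not_AUCRenormable_X⟩
  exact ⟨normSeminorm ℝ _, ⟨1, 1, one_pos, fun x => ⟨by rw [one_mul]; exact le_rfl,
    by rw [one_mul]; exact le_rfl⟩⟩, isAMUC_X⟩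

end Vale.Agent.Results.P069.AmucNotAuc
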